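import Crest.Agent.R166.Iface

/-! # Row 166, assembly: translation between the pairing model and the statements -/

set_option autoImplicit false

open MeasureTheory ProbabilityTheory Filter Topology
open scoped ENNReal NNReal BigOperators Matrix

noncomputable section

namespace Crest.Agent.R166

open Crest.ProbabilityR.RandomMatrix

theorem main_goodB_bL : GoodB bL := by
  refine ⟨fun L => by unfold bL; fun_prop, fun L x => ?_, fun R ε hε => ?_⟩
  · rcases eq_or_ne x 0 with rfl | hx
    · simp [bL]
    have e : bL L x = x⁻¹ * (L ^ 2 / (x ^ 2 + L ^ 2)) := by unfold bL; field_simp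
    rw [e, abs_mul, abs_inv, abs_of_nonneg (by positivity : 0 ≤ L ^ 2 / (x ^ 2 + L ^ 2))]
    exact mul_le_of_le_one_right (by positivity)
      (div_le_one_of_le₀ (by nlinarith [sq_nonneg x]) (by positivity))
  · filter_upwards [(tendsto_pow_atTop two_ne_zero).eventually_ge_atTop (R ^ 2 / ε)] with L hL x hx hR
    have e : x * bL L x - 1 = -(x ^ 2 / (x ^ 2 + L ^ 2)) := by unfold bL; field_simp; ring
    have h1 : x ^ 2 ≤ R ^ 2 := sq_le_sq' (abs_le.1 hR).1 (abs_le.1 hR).2
    rw [div_le_iff₀ hε] at hL
    rw [e, abs_neg, abs_of_nonneg (by positivity), div_le_iff₀ (by positivity)]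
    nlinarith [mul_nonneg hε.le (sq_nonneg x)]

theorem main_goodB_inv : GoodB fun _ x => x⁻¹ :=
  ⟨fun _ => measurable_inv, fun _ x => (abs_inv x).le, fun _ ε hε =>
    Eventually.of_forall fun _ x hx _ => by rw [mul_inv_cancel₀ hx, sub_self, abs_zero]; exact hε.le⟩

theorem main_ev {V : Type} [Fintype V] [DecidableEq V] {A : Matrix V V ℝ} (h : A.IsHermitian) :
    ev A = h.eigenvalues := dif_pos h

theorem main_meas_Hm {V : Type} [Fintype V] [DecidableEq V] {q : ℕ} (s : ℝ) :
    Measurable (Hm s : Cfg V q → Matrix V V ℝ) := by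
  refine measurable_pi_lambda _ fun i => measurable_pi_lambda _ fun j => ?_
  simp only [Hm, Matrix.add_apply, Matrix.diagonal_apply]
  refine ((measurable_from_top (f := fun σ : Pairing V q => adj σ i j)).comp measurable_fst).add ?_
  split_ifs
  · fun_prop
  · exact measurable_const

theorem main_meas_goe (n : ℕ) : Measurable (goeMatrix : GOEDisorder n → Matrix (Fin n) (Fin n) ℝ) := by
  refine measurable_pi_lambda _ fun i => measurable_pi_lambda _ fun j => ?_
  unfold goeMatrix
  split_ifs <;> fun_prop

theorem main_meas_unfold (hE : StE) {X : Type} [MeasurableSpace X] {n : ℕ}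
    {A : X → Matrix (Fin n) (Fin n) ℝ} (hA : Measurable A) (c E : ℝ) :
    Measurable fun x i => c * (ev (A x) i - E) :=
  measurable_pi_lambda _ fun i =>
    (((measurable_pi_apply i).comp ((hE (Fin n)).1.comp hA)).sub_const E).const_mul c

theorem main_prob_goe (hE : StE) (n : ℕ) : IsProbabilityMeasure (goeLaw n) := by
  have : IsProbabilityMeasure (goeDisorderLaw n) := by unfold goeDisorderLaw; infer_instance
  have h := main_meas_unfold hE (main_meas_goe n) (n / Real.pi) 0
  simp only [sub_zero] at h
  exact Measure.isProbabilityMeasure_map h.aemeasurable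

theorem main_cond (n q : ℕ) (π : Measure II) [IsProbabilityMeasure π] :
    (cfgLaw (Fin n) q π)[|{c | IsSimple c.1}] =
      (uniformOn {σ : Pairing (Fin n) q | IsSimple σ}).prod (Measure.pi fun _ => π) := by
  have e : {c : Cfg (Fin n) q | IsSimple c.1} = {σ | IsSimple σ} ×ˢ Set.univ := by
    ext c; simp
  have e2 : uniformOn {σ : Pairing (Fin n) q | IsSimple σ} =
      (uniformOn (Set.univ : Set (Pairing (Fin n) q)))[|{σ | IsSimple σ}] := by
    unfold uniformOn
    rw [cond_cond_eq_cond_inter' MeasurableSet.univ MeasurableSpace.measurableSet_top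
      (measure_ne_top _ _), Set.univ_inter]
  rw [e, e2]
  unfold cfgLaw ProbabilityTheory.cond
  rw [Measure.prod_prod, measure_univ, mul_one, ← Measure.prod_restrict, Measure.restrict_univ,
    Measure.prod_smul_left]

theorem main_prob_rrg (hE : StE) (hP : StP1) (q : ℕ) (π : Measure II) [IsProbabilityMeasure π]
    (s E : ℝ) : ∀ᶠ n : ℕ in atTop, Even (n * (q + 1)) → IsProbabilityMeasure (rrgLaw q π s E n) := by
  obtain ⟨c, hc, h⟩ := hP q
  filter_upwards [h] with n hn he
  have h1 : {σ : Pairing (Fin n) q | IsSimple σ}.Nonempty := by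
    refine nonempty_of_measure_ne_zero (μ := uniformOn Set.univ) fun h0 => ?_
    exact (ENNReal.ofReal_pos.2 hc).not_ge ((hn he).trans_eq h0)
  have := isProbabilityMeasure_uniformOn (Set.toFinite _) h1
  unfold rrgLaw
  rw [main_cond]
  exact Measure.isProbabilityMeasure_map (main_meas_unfold hE (main_meas_Hm s) _ E).aemeasurable

theorem main_meas_lap {n : ℕ} {h : ℝ → ℝ} (hc : Continuous h) :
    Measurable fun ξ : Fin n → ℝ => Real.exp (-∑ i, h (ξ i)) := by
  have := hc.measurable
  fun_prop

open Classical in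
theorem main_rrg_eq (hE : StE) (hP : StP2) (n q : ℕ) (π : Measure II) [IsProbabilityMeasure π]
    (s E : ℝ) {h : ℝ → ℝ} (hc : Continuous h) (hpos : ∀ t, 0 ≤ h t) :
    regularAverage n (q + 1) (fun G => ∫ w : Fin n → II, Real.exp (-∑ i, h (n * rho q π s E *
        (ev (G.adjMatrix ℝ + Matrix.diagonal fun v => s * (w v : ℝ)) i - E))) ∂Measure.pi fun _ => π) =
      ∫ ξ, Real.exp (-∑ i, h (ξ i)) ∂rrgLaw q π s E n := by
  have hm := main_meas_unfold hE (main_meas_Hm (V := Fin n) (q := q) s) (n * rho q π s E) E
  rw [hP n q _ (fun A => ∫ w : Fin n → II, Real.exp (-∑ i, h (n * rho q π s E *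
    (ev (A + Matrix.diagonal fun v => s * (w v : ℝ)) i - E))) ∂Measure.pi fun _ => π) fun _ => rfl]
  unfold rrgLaw
  rw [integral_map hm.aemeasurable (main_meas_lap hc).aestronglyMeasurable, main_cond, integral_prod]
  · rfl
  · refine Integrable.of_bound ((main_meas_lap hc).comp hm).aestronglyMeasurable 1
      (Eventually.of_forall fun c => ?_)
    rw [Real.norm_of_nonneg (Real.exp_pos _).le, Real.exp_le_one_iff, neg_nonpos]
    exact Finset.sum_nonneg fun i _ => hpos _

theorem main_goe_eq (hE : StE) (n : ℕ) {h : ℝ → ℝ} (hc : Continuous h) :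
    ∫ g, goeLaplaceWeight g (unfoldAt h (n / Real.pi) 0) ∂goeDisorderLaw n =
      ∫ ξ, Real.exp (-∑ i, h (ξ i)) ∂goeLaw n := by
  have hm := main_meas_unfold hE (main_meas_goe n) (n / Real.pi) 0
  simp only [sub_zero] at hm
  unfold goeLaw
  rw [integral_map hm.aemeasurable (main_meas_lap hc).aestronglyMeasurable]
  refine integral_congr_ae (Eventually.of_forall fun g => ?_)
  simp only [goeLaplaceWeight, laplaceWeight, unfoldAt, sub_zero, ← main_ev]

theorem main_uII_map : uII.map (fun x : II => (x : ℝ)) =
    (2⁻¹ : ℝ≥0) • volume.restrict (Set.Icc (-1 : ℝ) 1) := by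
  unfold uII
  rw [Measure.map_map measurable_subtype_coe continuous_projIcc.measurable]
  refine (Measure.map_congr ?_).trans Measure.map_id
  refine Measure.ae_smul_measure ?_ _
  filter_upwards [ae_restrict_mem measurableSet_Icc] with x hx
  simp [Set.projIcc_of_mem _ hx]

theorem main_prob_half :
    IsProbabilityMeasure ((2⁻¹ : ℝ≥0) • volume.restrict (Set.Icc (-1 : ℝ) 1)) := by
  refine ⟨?_⟩
  rw [Measure.smul_apply, Measure.restrict_apply_univ, Real.volume_Icc, ENNReal.smul_def, smul_eq_mul,
    show (1 : ℝ) - -1 = (2 : ℝ≥0) by norm_num, ENNReal.ofReal_coe_nnreal, ← ENNReal.coe_mul]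
  norm_num

theorem main_prob_uII : IsProbabilityMeasure uII := by
  have := main_prob_half
  exact Measure.isProbabilityMeasure_map continuous_projIcc.measurable.aemeasurable

theorem main_potential (n : ℕ) :
    (Measure.pi fun _ : Fin n => uII).map (fun w v => (w v : ℝ)) = potentialLaw n := by
  have := main_prob_half
  have := main_prob_uII
  rw [Measure.pi_map_pi (f := fun _ (x : II) => (x : ℝ)) fun _ => measurable_subtype_coe.aemeasurable]
  simp only [main_uII_map]
  rfl

theorem main_disorder (hE : StE) {n : ℕ} (G : SimpleGraph (Fin n)) (s c E : ℝ) {h : ℝ → ℝ}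
    (hc : Continuous h) : ∫ ω, disorderedLaplaceWeight G s ω (unfoldAt h c E) ∂potentialLaw n =
      open Classical in ∫ w : Fin n → II, Real.exp (-∑ i, h (c *
        (ev (G.adjMatrix ℝ + Matrix.diagonal fun v => s * (w v : ℝ)) i - E))) ∂Measure.pi fun _ => uII := by
  classical
  have hA : Measurable fun ω : Fin n → ℝ => G.adjMatrix ℝ + Matrix.diagonal fun v => s * ω v := by
    refine measurable_pi_lambda _ fun i => measurable_pi_lambda _ fun j => ?_
    simp only [Matrix.add_apply, Matrix.diagonal_apply]
    split_ifs <;> fun_prop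
  have e : ∀ ω : Fin n → ℝ, disorderedLaplaceWeight G s ω (unfoldAt h c E) = Real.exp (-∑ i, h (c *
      (ev (G.adjMatrix ℝ + Matrix.diagonal fun v => s * ω v) i - E))) := fun ω => by
    simp only [disorderedLaplaceWeight, laplaceWeight, unfoldAt, ← main_ev, ← Matrix.diagonal_smul]
    rfl
  simp only [e]
  rw [← main_potential]
  exact integral_map (Measurable.aemeasurable (by fun_prop))
    ((main_meas_lap hc).comp (main_meas_unfold hE hA c E)).aestronglyMeasurable

theorem main_even {n d : ℕ} (h : (regularGraphs n d).Nonempty) : Even (n * d) := by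
  classical
  obtain ⟨G, hG⟩ := h
  have h1 : ∀ v, G.degree v = d := fun v => by
    rw [← (Finset.mem_filter.1 hG).2 v, ← SimpleGraph.card_neighborFinset_eq_degree]
    congr 1
    ext w
    simp
  have h2 := G.sum_degrees_eq_twice_card_edges
  simp only [h1, Finset.sum_const, Finset.card_univ, Fintype.card_fin, smul_eq_mul] at h2
  exact ⟨_, h2.trans (two_mul _)⟩

end Crest.Agent.R166
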